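import Vale.Agent.P064K.Defs

/-! Conditional entropy inequalities for moved variables and the states of the process. -/

namespace Vale.Agent.P064

open Finset Real
open scoped Pointwise

noncomputable section

variable {T T' α β β' γ : Type} [Fintype T] [Fintype T'] {μ : T → ℝ}
variable {Γ : Type} [Group Γ] [Fintype Γ]

theorem eG_mono [MulAction Γ α] [MulAction Γ γ] (h : Law μ) {X : T → α} {U : T → γ} {Y : T → β}
    {Y' : T → β'} (hh : ∀ (g : Γ) s t, g • X s = X t → Y s = Y t → g • U s = U t ∧ Y' s = Y' t) :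
    eG Γ μ U Y' ≤ eG Γ μ X Y := by
  refine ent_mono (law_G Γ h) fun x y e => ?_
  have e1 : x.1 • X x.2 = y.1 • X y.2 := (Prod.ext_iff.1 e).1
  rw [← inv_smul_eq_iff, smul_smul] at e1
  obtain ⟨k1, k2⟩ := hh _ _ _ e1 (Prod.ext_iff.1 e).2
  rw [← smul_smul, inv_smul_eq_iff] at k1
  exact Prod.ext k1 k2

theorem condE [MulAction Γ α] [MulAction Γ γ] (h : Law μ) {X : T → α} {U : T → γ} (Y : T → β)
    (hh : ∀ (g : Γ) s t, g • X s = X t → Y s = Y t → g • U s = U t) :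
    ent μ (fun t => (X t, Y t)) - ent μ (fun t => (U t, Y t)) ≤ eG Γ μ X Y - eG Γ μ U Y := by
  have := submod (law_G Γ h) (X := fun x => (x.1 • X x.2, Y x.2))
    (Y := fun x => (x.1, U x.2, Y x.2)) (U := fun x => (x.1 • U x.2, Y x.2))
    (V := fun x => (x.1, X x.2, Y x.2))
    (fun x y e => by
      have e1 : x.1 • X x.2 = y.1 • X y.2 := (Prod.ext_iff.1 e).1
      have e2 : Y x.2 = Y y.2 := (Prod.ext_iff.1 e).2
      rw [← inv_smul_eq_iff, smul_smul] at e1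
      have k1 := hh _ _ _ e1 e2
      rw [← smul_smul, inv_smul_eq_iff] at k1
      exact Prod.ext k1 e2)
    (fun x y e => congrArg (fun z : Γ × γ × β => (z.1 • z.2.1, z.2.2)) e) fun x y e e' => by
      have e1 : x.1 = y.1 := (Prod.ext_iff.1 e').1
      have e2 : x.1 • X x.2 = y.1 • X y.2 := (Prod.ext_iff.1 e).1
      rw [e1] at e2
      exact Prod.ext e1 (Prod.ext (smul_left_cancel _ e2) (Prod.ext_iff.1 e).2)
  rw [ent_pair_G Γ h fun t => (X t, Y t), ent_pair_G Γ h fun t => (U t, Y t)] at this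
  unfold eG
  linarith

theorem eG_refine [MulAction Γ α] (h : Law μ) (X : T → α) {Y : T → β} {Y' : T → β'}
    (hh : ∀ s t, Y' s = Y' t → Y s = Y t) :
    eG Γ μ X Y' ≤ eG Γ μ X Y + (ent μ Y' - ent μ Y) := by
  have := submod (law_G Γ h) (X := fun x => (x.1 • X x.2, Y x.2))
    (Y := fun x => Y' x.2) (U := fun x => Y x.2) (V := fun x => (x.1 • X x.2, Y' x.2))
    (fun x y e => (Prod.ext_iff.1 e).2) (fun x y e => hh _ _ e)
    fun x y e e' => Prod.ext (Prod.ext_iff.1 e).1 e'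
  rw [(pres_G Γ).ent Y, (pres_G Γ).ent Y'] at this
  unfold eG
  linarith

theorem Pres.eG [SMul Γ α] {μ' : T' → ℝ} {ϖ : T' → T} (h : Pres μ' μ ϖ) (X : T → α) (Y : T → β) :
    eG Γ μ' (fun x => X (ϖ x)) (fun x => Y (ϖ x)) = eG Γ μ X Y := by
  have : Pres (lawG Γ μ') (lawG Γ μ) fun x => (x.1, ϖ x.2) := fun φ => by
    rw [sum_lawG, sum_lawG, h fun t => (∑ g, φ (g, t)) / Fintype.card Γ]
  exact this.ent fun x => (x.1 • X x.2, Y x.2)

variable {E : Type} [DecidableEq E] [MulAction Γ E]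

theorem eG_ge (h : Law μ) (K : T → Finset E) (Y : T → β) (hK : ∀ s t, Y s = Y t → K s = K t) :
    -∑ t, μ t * log (nu Γ (K t) (K t)) ≤ eG Γ μ K Y - ent μ Y := by
  classical
  have h1 : ∀ x : Γ × T, log (pr (lawG Γ μ) (fun x => (x.1 • K x.2, Y x.2)) (x.1 • K x.2, Y x.2)) ≤
      log (nu Γ (K x.2) (K x.2)) + log (pr μ Y (Y x.2)) := by
    intro x
    rw [← log_mul (nu_pos subset_rfl).ne' (pr_pos h Y _).ne']
    refine log_le_log (pr_pos (law_G Γ h) _ x) ?_
    rw [pr_eq, pr_eq, sum_lawG, mul_sum]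
    refine sum_le_sum fun t _ => ?_
    rw [mul_left_comm]
    refine mul_le_mul_of_nonneg_left ?_ (h.pos t).le
    by_cases e : Y t = Y x.2
    · rw [if_pos e, mul_one, ← nu_smul_left _ _ x.1]
      refine div_le_div_of_nonneg_right (sum_le_sum fun g _ => ?_) (cardG_pos Γ).le
      by_cases e' : g • K x.2 = x.1 • K x.2
      · rw [if_pos e'.subset]
        split_ifs <;> norm_num
      · rw [if_neg fun e'' => e' ((congrArg (g • ·) (hK _ _ e)).symm.trans (Prod.ext_iff.1 e'').1)]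
        split_ifs <;> norm_num
    · rw [if_neg e, mul_zero, sum_eq_zero fun g _ => if_neg fun e' => e (Prod.ext_iff.1 e').2,
        zero_div]
  have h2 := sum_le_sum fun x (_ : x ∈ univ) =>
    mul_le_mul_of_nonneg_left (h1 x) ((law_G Γ h).pos x).le
  simp only [mul_add, sum_add_distrib] at h2
  rw [pres_G Γ fun t => log (nu Γ (K t) (K t)), pres_G Γ fun t => log (pr μ Y (Y t))] at h2
  unfold eG ent
  linarith

omit [DecidableEq E] in
theorem sz_nonneg (h : Law μ) (B : T → Finset E) : 0 ≤ sz μ B :=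
  sum_nonneg fun t _ => mul_nonneg (h.pos t).le (by positivity)

omit [DecidableEq E] in
theorem sz_le (h : Law μ) {B : T → Finset E} {H : Finset E} (hB : ∀ t, B t ⊆ H) :
    sz μ B ≤ H.card := by
  refine le_of_le_of_eq (sum_le_sum fun t _ => mul_le_mul_of_nonneg_left ?_ (h.pos t).le)
    (by rw [← sum_mul, h.sum, one_mul])
  exact_mod_cast card_le_card (hB t)

omit [DecidableEq E] in
theorem Pres.sz {μ' : T' → ℝ} {ϖ : T' → T} (h : Pres μ' μ ϖ) (B : T → Finset E) :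
    sz μ' (fun x => B (ϖ x)) = sz μ B := h fun t => (B t).card

theorem sz_sdiff {K B : T → Finset E} (hK : ∀ t, K t ⊆ B t) :
    sz μ (fun t => B t \ K t) = sz μ B - sz μ K := by
  rw [sz, sz, sz, ← sum_sub_distrib]
  refine sum_congr rfl fun t _ => ?_
  rw [card_sdiff_of_subset (hK t), Nat.cast_sub (card_le_card (hK t)), mul_sub]

/-- a random subset of `H`, an observed history and a flag of known subsets -/
structure St (H : Finset E) where
  T : Type
  fin : Fintype T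
  μ : T → ℝ
  law : @Law T fin μ
  β : Type
  Y : T → β
  G : T → ℕ → Finset E
  hG : ∀ s t, Y s = Y t → G s = G t
  A : T → Finset E
  KA : ∀ t, G t 0 ⊆ A t
  AH : ∀ t, A t ⊆ H

namespace St

variable {H : Finset E}

instance (s : St H) : Fintype s.T := s.fin

variable (s : St H)

/-- the unknown part -/
def B (t : s.T) : Finset E := s.A t \ s.G t 0

theorem BH (t : s.T) : s.B t ⊆ H := sdiff_subset.trans (s.AH t)

/-- expected size of the known part -/
def κ : ℝ := sz s.μ fun t => s.G t 0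

variable (Γ) in
/-- information carried by the moved set and flag -/
def N : ℝ := eG Γ s.μ (fun t => (s.A t, s.G t)) s.Y - ent s.μ fun t => (s.A t, s.Y t)

variable (Γ) in
/-- information carried by the moved flag -/
def M : ℝ := eG Γ s.μ s.G s.Y - ent s.μ s.Y

theorem M_le_N : s.M Γ ≤ s.N Γ := by
  have h1 := condE (Γ := Γ) s.law (X := fun t => (s.A t, s.G t)) (U := s.G) s.Y
    fun g t t' e _ => (Prod.ext_iff.1 e).2
  have h2 : ent s.μ (fun t => (s.A t, s.Y t)) ≤ ent s.μ fun t => ((s.A t, s.G t), s.Y t) :=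
    ent_mono s.law fun t t' e => Prod.ext (Prod.ext_iff.1 (Prod.ext_iff.1 e).1).1
      (Prod.ext_iff.1 e).2
  have h3 : ent s.μ (fun t => (s.G t, s.Y t)) ≤ ent s.μ s.Y :=
    ent_mono s.law fun t t' e => Prod.ext (s.hG _ _ e) e
  unfold M N
  linarith

theorem M_ge {Λ : ℝ} (hH : ∀ U ⊆ H, U.card * Λ ≤ -log (nu Γ U U)) : Λ * s.κ ≤ s.M Γ := by
  have h1 := eG_ge (Γ := Γ) s.law (fun t => s.G t 0) s.Y fun t t' e => congrFun (s.hG _ _ e) 0
  have h2 : eG Γ s.μ (fun t => s.G t 0) s.Y ≤ eG Γ s.μ s.G s.Y :=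
    eG_mono s.law fun g t t' e e' => ⟨congrFun e 0, e'⟩
  have h3 : Λ * s.κ ≤ -∑ t, s.μ t * log (nu Γ (s.G t 0) (s.G t 0)) := by
    rw [κ, sz, mul_sum, ← sum_neg_distrib]
    refine sum_le_sum fun t _ => ?_
    have := mul_le_mul_of_nonneg_left (hH _ ((s.KA t).trans (s.AH t))) (s.law.pos t).le
    linarith
  unfold M
  linarith

/-- observing one more variable on a larger space -/
def pin {μ' : T' → ℝ} (h : Law μ') (ϖ : T' → s.T) (W : T' → Finset E) : St H where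
  T := T'
  fin := inferInstance
  μ := μ'
  law := h
  β := s.β × Finset E
  Y t := (s.Y (ϖ t), W t)
  G t := s.G (ϖ t)
  hG _ _ e := s.hG _ _ (Prod.ext_iff.1 e).1
  A t := s.A (ϖ t)
  KA _ := s.KA _
  AH _ := s.AH _

theorem pin_N {μ' : T' → ℝ} (h : Law μ') {ϖ : T' → s.T} (hp : Pres μ' s.μ ϖ) (W : T' → Finset E) :
    (s.pin h ϖ W).N Γ ≤ s.N Γ +
      (ent μ' (fun t => (W t, s.Y (ϖ t))) - ent μ' fun t => s.Y (ϖ t)) := by
  have h1 := eG_refine (Γ := Γ) h (fun t => (s.A (ϖ t), s.G (ϖ t))) (Y := fun t => s.Y (ϖ t))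
    (Y' := fun t => (s.Y (ϖ t), W t)) fun t t' e => (Prod.ext_iff.1 e).1
  have h2 := hp.eG (Γ := Γ) (fun t => (s.A t, s.G t)) s.Y
  have h3 := hp.ent fun t => (s.A t, s.Y t)
  have h4 : ent μ' (fun t => (s.A (ϖ t), s.Y (ϖ t))) ≤
      ent μ' fun t => (s.A (ϖ t), s.Y (ϖ t), W t) :=
    ent_mono h fun t t' e => Prod.ext (Prod.ext_iff.1 e).1
      (Prod.ext_iff.1 (Prod.ext_iff.1 e).2).1
  have h5 : ent μ' (fun t => (s.Y (ϖ t), W t)) ≤ ent μ' fun t => (W t, s.Y (ϖ t)) :=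
    ent_mono h fun t t' e => Prod.ext (Prod.ext_iff.1 e).2 (Prod.ext_iff.1 e).1
  have h6 : (s.pin h ϖ W).N Γ = eG Γ μ' (fun t => (s.A (ϖ t), s.G (ϖ t)))
    (fun t => (s.Y (ϖ t), W t)) - ent μ' fun t => (s.A (ϖ t), s.Y (ϖ t), W t) := rfl
  rw [h6, N]
  linarith

/-- two conditionally independent copies -/
def next : St H where
  T := Two s.Y
  fin := inferInstance
  μ := two s.μ s.Y
  law := law_two s.law s.Y
  β := s.β × Finset E
  Y x := (s.Y x.1.1, s.A x.1.1 ∩ s.A x.1.2)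
  G x n := Nat.casesOn n (s.A x.1.1 ∩ s.A x.1.2) (s.G x.1.1)
  hG x x' e := funext fun n => by
    cases n with
    | zero => exact (Prod.ext_iff.1 e).2
    | succ n => exact congrFun (s.hG _ _ (Prod.ext_iff.1 e).1) n
  A x := s.A x.1.1 ∪ s.A x.1.2
  KA _ := inter_subset_union
  AH _ := union_subset (s.AH _) (s.AH _)

/-- the overlap -/
def Z (x : Two s.Y) : Finset E := s.A x.1.1 ∩ s.A x.1.2

theorem G_two (x : Two s.Y) : s.G x.1.2 = s.G x.1.1 := s.hG _ _ x.2.symm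

theorem KZ (x : Two s.Y) : s.G x.1.1 0 ⊆ s.Z x :=
  subset_inter (s.KA _) (s.G_two x ▸ s.KA _)

theorem BB (x : Two s.Y) : s.B x.1.1 ∩ s.B x.1.2 = s.Z x \ s.G x.1.1 0 := by
  ext e
  simp only [B, Z, s.G_two, mem_inter, mem_sdiff]
  tauto

theorem next_B (x : Two s.Y) :
    s.next.B x = (s.B x.1.1 ∪ s.B x.1.2) \ (s.B x.1.1 ∩ s.B x.1.2) := by
  ext e
  have k1 := @s.KA x.1.1 e
  have k2 := @s.KA x.1.2 e
  rw [s.G_two] at k2
  show e ∈ (s.A x.1.1 ∪ s.A x.1.2) \ (s.A x.1.1 ∩ s.A x.1.2) ↔ _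
  simp only [B, s.G_two, mem_inter, mem_sdiff, mem_union]
  tauto

theorem sz_BB : sz (two s.μ s.Y) (fun x => s.B x.1.1 ∩ s.B x.1.2) = s.next.κ - s.κ := by
  simp only [s.BB]
  rw [sz_sdiff s.KZ, (pres_fst s.law s.Y).sz fun t => s.G t 0]
  rfl

theorem next_sz : sz s.next.μ s.next.B = 2 * sz s.μ s.B - 2 * (s.next.κ - s.κ) := by
  have h1 := (pres_fst s.law s.Y).sz s.B
  have h2 := (pres_snd s.law s.Y).sz s.B
  have h3 : sz s.next.μ s.next.B + 2 * sz (two s.μ s.Y) (fun x => s.B x.1.1 ∩ s.B x.1.2) =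
      sz (two s.μ s.Y) (fun x => s.B x.1.1) + sz (two s.μ s.Y) fun x => s.B x.1.2 := by
    show sz (two s.μ s.Y) (fun x => s.next.B x) + _ = _
    simp only [s.next_B, sz, mul_sum, ← sum_add_distrib]
    refine sum_congr rfl fun x _ => ?_
    have k := card_union_add_card_inter (s.B x.1.1) (s.B x.1.2)
    have k' : ((s.B x.1.1 ∪ s.B x.1.2).card : ℝ) + (s.B x.1.1 ∩ s.B x.1.2).card =
      (s.B x.1.1).card + (s.B x.1.2).card := by exact_mod_cast k
    rw [card_sdiff_of_subset inter_subset_union, Nat.cast_sub (card_le_card inter_subset_union)]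
    linear_combination two s.μ s.Y x * k'
  rw [s.sz_BB] at h3
  linarith

theorem next_aux (p : Two s.Y → s.T) (hY : ∀ x, s.Y (p x) = s.Y x.1.1) :
    eG Γ s.next.μ (fun x => (s.A (p x), s.next.G x)) s.next.Y ≤
      eG Γ s.next.μ (fun x => ((s.A (p x), s.G (p x)), s.Z x)) (fun x => s.Y (p x)) +
        (ent s.next.μ s.next.Y - ent s.next.μ fun x => s.Y (p x)) := by
  refine le_trans ?_ (eG_refine (Γ := Γ) s.next.law (fun x => ((s.A (p x), s.G (p x)), s.Z x))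
    (Y := fun x => s.Y (p x)) (Y' := s.next.Y) fun x x' e =>
      (hY x).trans ((Prod.ext_iff.1 e).1.trans (hY x').symm))
  refine eG_mono s.next.law fun g x x' e e' => ⟨Prod.ext
    (Prod.ext_iff.1 (Prod.ext_iff.1 e).1).1 (funext fun n => ?_), e'⟩
  cases n with
  | zero => exact (Prod.ext_iff.1 e).2
  | succ n =>
    show g • s.G x.1.1 n = s.G x'.1.1 n
    rw [← s.hG _ _ (hY x), ← s.hG _ _ (hY x')]
    exact congrFun (Prod.ext_iff.1 (Prod.ext_iff.1 e).1).2 n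

/-- the doubling inequality -/
theorem next_N : s.next.N Γ ≤
    eG Γ s.next.μ (fun x => ((s.A x.1.1, s.G x.1.1), s.Z x)) (fun x => s.Y x.1.1) +
      eG Γ s.next.μ (fun x => ((s.A x.1.2, s.G x.1.2), s.Z x)) (fun x => s.Y x.1.2) -
      2 * ent s.μ (fun t => (s.A t, s.Y t)) + (ent s.next.μ s.next.Y - ent s.μ s.Y) -
      s.next.M Γ := by
  have h0 := s.next.law
  have h1 := condE (Γ := Γ) h0 (X := fun x => ((s.A x.1.1, s.A x.1.2), s.next.G x))
    (U := fun x => (s.next.A x, s.next.G x)) s.next.Y fun g x x' e _ => by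
      refine Prod.ext ?_ (Prod.ext_iff.1 e).2
      have e1 : g • s.A x.1.1 = s.A x'.1.1 := (Prod.ext_iff.1 (Prod.ext_iff.1 e).1).1
      have e2 : g • s.A x.1.2 = s.A x'.1.2 := (Prod.ext_iff.1 (Prod.ext_iff.1 e).1).2
      show g • (s.A x.1.1 ∪ s.A x.1.2) = s.A x'.1.1 ∪ s.A x'.1.2
      rw [smul_finset_union, e1, e2]
  have h2 : ent s.next.μ (fun x => ((s.next.A x, s.next.G x), s.next.Y x)) ≤
      ent s.next.μ fun x => (s.next.A x, s.next.Y x) :=
    ent_mono h0 fun x x' e => Prod.ext (Prod.ext (Prod.ext_iff.1 e).1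
      (s.next.hG _ _ (Prod.ext_iff.1 e).2)) (Prod.ext_iff.1 e).2
  have h3 : ent s.next.μ (fun x => (s.A x.1.1, s.A x.1.2, s.Y x.1.1)) ≤
      ent s.next.μ fun x => (((s.A x.1.1, s.A x.1.2), s.next.G x), s.next.Y x) :=
    ent_mono h0 fun x x' e => Prod.ext (Prod.ext_iff.1 (Prod.ext_iff.1 (Prod.ext_iff.1 e).1).1).1
      (Prod.ext (Prod.ext_iff.1 (Prod.ext_iff.1 (Prod.ext_iff.1 e).1).1).2
        (Prod.ext_iff.1 (Prod.ext_iff.1 e).2).1)
  have h4 : ent s.next.μ (fun x => (s.A x.1.1, s.A x.1.2, s.Y x.1.1)) =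
      2 * ent s.μ (fun t => (s.A t, s.Y t)) - ent s.μ s.Y := ent_two s.law s.Y s.A
  have h5 : eG Γ s.next.μ (fun x => ((s.A x.1.1, s.A x.1.2), s.next.G x)) s.next.Y +
      eG Γ s.next.μ s.next.G s.next.Y ≤
      eG Γ s.next.μ (fun x => (s.A x.1.1, s.next.G x)) s.next.Y +
        eG Γ s.next.μ (fun x => (s.A x.1.2, s.next.G x)) s.next.Y :=
    submod (law_G Γ h0)
      (fun x y e => Prod.ext (Prod.ext_iff.1 (Prod.ext_iff.1 e).1).2 (Prod.ext_iff.1 e).2)
      (fun x y e => Prod.ext (Prod.ext_iff.1 (Prod.ext_iff.1 e).1).2 (Prod.ext_iff.1 e).2)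
      fun x y e e' => Prod.ext (Prod.ext (Prod.ext (Prod.ext_iff.1 (Prod.ext_iff.1 e).1).1
        (Prod.ext_iff.1 (Prod.ext_iff.1 e').1).1) (Prod.ext_iff.1 (Prod.ext_iff.1 e).1).2)
        (Prod.ext_iff.1 e).2
  have h6 := s.next_aux (Γ := Γ) (fun x => x.1.1) fun _ => rfl
  have h7 := s.next_aux (Γ := Γ) (fun x => x.1.2) fun x => x.2.symm
  have h8 : ent s.next.μ (fun x => s.Y x.1.1) = ent s.μ s.Y := (pres_fst s.law s.Y).ent s.Y
  have h9 : ent s.next.μ (fun x => s.Y x.1.2) = ent s.μ s.Y := (pres_snd s.law s.Y).ent s.Y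
  unfold N M
  linarith

end St

end

end Vale.Agent.P064
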