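import Vale.Agent.P064K.Defs

/-! The entropy of the overlap of two conditionally independent copies. -/

namespace Vale.Agent.P064

open Finset Real

variable {T β : Type} [Fintype T] {E : Type} [DecidableEq E] {μ : T → ℝ}

theorem num_EntZ {y a l : ℝ} (h0 : 0 ≤ y) (h1 : y ≤ 1) (ha1 : a ≤ 1 / 2)
    (hl : 0 < l) :
    y ^ 2 * (-2 * log y) + y ^ 2 ≤ y ^ 2 * (1 + 4 * (-log l)) + 4 * l * y ^ (1 + a) := by
  rcases h0.eq_or_lt with rfl | h0
  · have : (0 : ℝ) ≤ 4 * l * (0 : ℝ) ^ (1 + a) := by positivity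
    simpa using this
  have hu : 0 < y ^ (a - 1) := rpow_pos_of_pos h0 _
  have h2 := log_le_sub_one_of_pos (mul_pos hl hu)
  rw [log_mul hl.ne' hu.ne', log_rpow h0] at h2
  have h3 : log y ≤ 0 := log_nonpos h0.le h1
  have h4 : -log y ≤ 2 * (-log l + l * y ^ (a - 1)) := by nlinarith
  have h5 : y ^ (1 + a) = y ^ 2 * y ^ (a - 1) := by
    rw [← rpow_natCast y 2, ← rpow_add h0]
    congr 1
    push_cast
    ring
  rw [h5]
  have h6 := mul_le_mul_of_nonneg_left h4 (sq_nonneg y)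
  nlinarith

theorem both_EntZ (h : Law μ) (Y : T → β) (φ : T → ℝ) (χ : β → ℝ) :
    ∑ x : Two Y, two μ Y x * (φ x.1.1 * χ (Y x.1.1) * φ x.1.2) =
      ∑ t, μ t * (ce μ Y φ (Y t) ^ 2 * χ (Y t)) := by
  refine (sum_two Y (fun t => φ t * χ (Y t)) φ).trans ?_
  simp only [mul_assoc (φ _)]
  rw [tower h Y φ fun b => χ b * ce μ Y φ b]
  exact sum_congr rfl fun t _ => by ring

theorem pos_EntZ (h : Law μ) (Y : T → β) (B : T → Finset E) {e : E} {t : T} (he : e ∈ B t) :
    0 < ce μ Y (ind B e) (Y t) := by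
  classical
  refine div_pos (sum_pos' (fun s _ => ?_) ⟨t, mem_univ _, ?_⟩) (pr_pos h Y t)
  · split_ifs
    exacts [mul_nonneg (h.pos s).le (ind_nonneg B e s), le_rfl]
  · rw [if_pos rfl, ind, if_pos he, mul_one]
    exact h.pos t
theorem ent_overlap (h : Law μ) (Y : T → β) (B : T → Finset E) (H : Finset E) (hB : ∀ t, B t ⊆ H)
    {a l : ℝ} (ha : 0 < a) (ha1 : a ≤ 1 / 2) (hl : 0 < l) :
    ent (two μ Y) (fun x => (B x.1.1 ∩ B x.1.2, Y x.1.1)) - ent μ Y ≤
      sz (two μ Y) (fun x => B x.1.1 ∩ B x.1.2) * (1 + 4 * (-log l)) + 4 * l * cpot μ Y B H a := by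
  have hT := law_two h Y
  set Z : Two Y → Finset E := fun x => B x.1.1 ∩ B x.1.2 with hZ
  have hZH : ∀ x, Z x ⊆ H := fun x => inter_subset_left.trans (hB _)
  have hy : ∀ x, ∀ e ∈ Z x, 0 < ce μ Y (ind B e) (Y x.1.1) := fun x e he =>
    pos_EntZ h Y B (mem_inter.1 he).1
  have h1 := ent_le_code hT Z (fun x => Y x.1.1)
    (fun b z => (∏ e ∈ z, ce μ Y (ind B e) b ^ 2) / ∏ e ∈ H, (1 + ce μ Y (ind B e) b ^ 2))
    (fun x => div_pos (prod_pos fun e he => pow_pos (hy x e he) 2)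
      (prod_pos fun e _ => by positivity)) fun b S hS => by
      rw [← sum_div]
      refine div_le_one_of_le₀ ?_ (prod_nonneg fun e _ => by positivity)
      rw [prod_one_add]
      refine sum_le_sum_of_subset_of_nonneg (fun w hw => ?_)
        fun _ _ _ => prod_nonneg fun e _ => by positivity
      obtain ⟨t, rfl, -⟩ := hS w hw
      exact mem_powerset.2 (hZH t)
  have h3 : ent (two μ Y) (fun x => Y x.1.1) = ent μ Y := (pres_fst h Y).ent Y
  have h4 : -∑ x, two μ Y x * log ((∏ e ∈ Z x, ce μ Y (ind B e) (Y x.1.1) ^ 2) /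
      ∏ e ∈ H, (1 + ce μ Y (ind B e) (Y x.1.1) ^ 2)) ≤
      ∑ e ∈ H, ∑ t, μ t * (ce μ Y (ind B e) (Y t) ^ 2 * (-2 * log (ce μ Y (ind B e) (Y t))) +
        ce μ Y (ind B e) (Y t) ^ 2) := by
    simp only [mul_add, sum_add_distrib]
    have h5 := fun e => both_EntZ h Y (ind B e) fun b => -2 * log (ce μ Y (ind B e) b)
    have h6 := fun e => pres_fst h Y fun t => ce μ Y (ind B e) (Y t) ^ 2
    refine le_of_le_of_eq ?_ (congrArg₂ (· + ·) (sum_congr rfl fun e _ => h5 e)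
      (sum_congr rfl fun e _ => h6 e))
    rw [sum_comm, sum_comm (s := H), ← sum_add_distrib, ← sum_neg_distrib]
    refine sum_le_sum fun x _ => ?_
    show _ ≤ ∑ e ∈ H, two μ Y x * (ind B e x.1.1 * (-2 * log (ce μ Y (ind B e) (Y x.1.1))) *
      ind B e x.1.2) + ∑ e ∈ H, two μ Y x * ce μ Y (ind B e) (Y x.1.1) ^ 2
    rw [← mul_sum, ← mul_sum, ← mul_add, ← mul_neg]
    refine mul_le_mul_of_nonneg_left ?_ (hT.pos x).le
    rw [log_div (prod_pos fun e he => pow_pos (hy x e he) 2).ne'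
      (prod_pos fun e _ => by positivity).ne', log_prod fun e he => (pow_pos (hy x e he) 2).ne',
      log_prod fun e _ => by positivity, neg_sub, sub_eq_add_neg, add_comm]
    refine add_le_add (le_of_eq ?_) (sum_le_sum fun e _ => ?_)
    · rw [← sum_neg_distrib, ← inter_eq_right.2 (hZH x), ← sum_ite_mem]
      refine sum_congr rfl fun e _ => ?_
      simp only [ind, hZ, mem_inter, log_pow]
      by_cases a1 : e ∈ B x.1.1 <;> by_cases a2 : e ∈ B x.1.2 <;> simp [a1, a2]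
    · have := log_le_sub_one_of_pos (show 0 < 1 + ce μ Y (ind B e) (Y x.1.1) ^ 2 by positivity)
      linarith
  have h5 : sz (two μ Y) Z = ∑ e ∈ H, ∑ t, μ t * ce μ Y (ind B e) (Y t) ^ 2 := by
    have h6 := fun e => both_EntZ h Y (ind B e) fun _ => 1
    simp only [mul_one] at h6
    rw [← sum_congr rfl fun e _ => h6 e, sum_comm, sz]
    refine sum_congr rfl fun x _ => ?_
    rw [← mul_sum]
    congr 1
    rw [← inter_eq_right.2 (hZH x), card_eq_sum_ones, Nat.cast_sum, ← sum_ite_mem]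
    refine sum_congr rfl fun e _ => ?_
    simp only [ind, hZ, mem_inter]
    by_cases a1 : e ∈ B x.1.1 <;> by_cases a2 : e ∈ B x.1.2 <;> simp [a1, a2]
  have h7 : ∑ e ∈ H, ∑ t, μ t * (ce μ Y (ind B e) (Y t) ^ 2 *
      (-2 * log (ce μ Y (ind B e) (Y t))) + ce μ Y (ind B e) (Y t) ^ 2) ≤
      sz (two μ Y) Z * (1 + 4 * (-log l)) + 4 * l * cpot μ Y B H a := by
    rw [h5, cpot, sum_mul, mul_sum, ← sum_add_distrib]
    refine sum_le_sum fun e _ => ?_
    rw [sum_mul, mul_sum, ← sum_add_distrib]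
    refine sum_le_sum fun t _ => ?_
    have := mul_le_mul_of_nonneg_left (num_EntZ (ce_nonneg h Y (ind_nonneg B e) (Y t))
      (ce_le_one h Y (ind_le B e) (Y t)) ha1 hl) (h.pos t).le
    linarith
  rw [h3] at h1
  exact h1.trans (h4.trans h7)

end Vale.Agent.P064
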