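import Vale.Agent.P064K.Jens

/-! The potential grows under doubling. -/

namespace Vale.Agent.P064

open Finset Real

variable {T β β' : Type} [Fintype T] {E : Type} [DecidableEq E] {μ : T → ℝ}

theorem num_PotTwo {y a : ℝ} (h0 : 0 ≤ y) (h1 : y ≤ 1) (ha : 0 < a) (ha1 : a ≤ 1) :
    (1 + a / 2) * y ^ (1 + a) - 4 * y ^ 2 ≤ (2 * y - 2 * y ^ 2) ^ (1 + a) / 2 := by
  have e1 : 2 * y - 2 * y ^ 2 = 2 * (y * (1 - y)) := by ring
  have h2 : 0 ≤ 1 - y := by linarith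
  rw [e1, mul_rpow (by norm_num) (mul_nonneg h0 h2), mul_rpow h0 h2,
    rpow_one_add' (x := 2) (by norm_num) (by linarith)]
  have hA1 : 1 + a / 2 ≤ (2 : ℝ) ^ a := by
    rw [rpow_def_of_pos (by norm_num)]
    have := add_one_le_exp (log 2 * a)
    have := log_two_gt_d9
    nlinarith
  have hA2 : (2 : ℝ) ^ a ≤ 2 := by
    simpa using rpow_le_rpow_of_exponent_le (x := 2) (by norm_num) ha1
  have hP0 : 0 ≤ y ^ (1 + a) := rpow_nonneg h0 _
  have hP : y ^ (1 + a) ≤ y := by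
    simpa using rpow_le_rpow_of_exponent_ge' h0 h1 (z := 1) (y := 1 + a) (by norm_num) (by linarith)
  have hQ : 1 - 2 * y ≤ (1 - y) ^ (1 + a) := by
    have := rpow_le_rpow_of_exponent_ge' h2 (by linarith) (z := 1 + a) (y := 2) (by linarith)
      (by linarith)
    rw [rpow_two] at this
    nlinarith [sq_nonneg y]
  generalize (2 : ℝ) ^ a = A at *
  generalize y ^ (1 + a) = P at *
  generalize (1 - y) ^ (1 + a) = Q at *
  have hA0 : 0 ≤ A := by linarith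
  have k1 : A * P * (1 - 2 * y) ≤ A * P * Q := mul_le_mul_of_nonneg_left hQ (mul_nonneg hA0 hP0)
  have k2 : (1 + a / 2) * P ≤ A * P := mul_le_mul_of_nonneg_right hA1 hP0
  have k3 : A * (P * y) ≤ 2 * (P * y) := mul_le_mul_of_nonneg_right hA2 (mul_nonneg hP0 h0)
  have k4 : P * y ≤ y * y := mul_le_mul_of_nonneg_right hP h0
  nlinarith

theorem both_PotTwo (h : Law μ) (Y : T → β) (φ : T → ℝ) (χ : β → ℝ) :
    ∑ x : Two Y, two μ Y x * (φ x.1.1 * χ (Y x.1.1) * φ x.1.2) =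
      ∑ t, μ t * (ce μ Y φ (Y t) ^ 2 * χ (Y t)) := by
  refine (sum_two Y (fun t => φ t * χ (Y t)) φ).trans ?_
  simp only [mul_assoc (φ _)]
  rw [tower h Y φ fun b => χ b * ce μ Y φ b]
  exact sum_congr rfl fun t _ => by ring

theorem one_PotTwo (h : Law μ) (Y : T → β) (φ : T → ℝ) (χ : β → ℝ) :
    ∑ x : Two Y, two μ Y x * ((φ x.1.1 + φ x.1.2 - 2 * (φ x.1.1 * φ x.1.2)) * χ (Y x.1.1)) =
      ∑ t, μ t * ((2 * ce μ Y φ (Y t) - 2 * ce μ Y φ (Y t) ^ 2) * χ (Y t)) := by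
  have h1 := (pres_fst h Y fun t => φ t * χ (Y t)).trans (tower h _ _ _)
  have h2 := (pres_snd h Y fun t => φ t * χ (Y t)).trans (tower h _ _ _)
  have h3 := both_PotTwo h Y φ χ
  have h4 : ∀ x : Two Y,
      two μ Y x * ((φ x.1.1 + φ x.1.2 - 2 * (φ x.1.1 * φ x.1.2)) * χ (Y x.1.1)) =
      two μ Y x * (φ x.1.1 * χ (Y x.1.1)) + two μ Y x * (φ x.1.2 * χ (Y x.1.2)) -
        2 * (two μ Y x * (φ x.1.1 * χ (Y x.1.1) * φ x.1.2)) := by
    intro x
    rw [← x.2]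
    ring
  rw [sum_congr rfl fun x _ => h4 x, sum_sub_distrib, sum_add_distrib, ← mul_sum, h3, h1, h2,
    mul_sum, ← sum_add_distrib, ← sum_sub_distrib]
  exact sum_congr rfl fun t _ => by ring

theorem cpot_two (h : Law μ) (Y : T → β) (B : T → Finset E) (H : Finset E) (hB : ∀ t, B t ⊆ H)
    (Y' : Two Y → β') (hY : ∀ x x', Y' x = Y' x' → Y x.1.1 = Y x'.1.1)
    (B' : Two Y → Finset E) (hB' : ∀ x, B' x = (B x.1.1 ∪ B x.1.2) \ (B x.1.1 ∩ B x.1.2))
    {a : ℝ} (ha : 0 < a) (ha1 : a ≤ 1) :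
    (1 + a / 2) * cpot μ Y B H a - 4 * sz (two μ Y) (fun x => B x.1.1 ∩ B x.1.2) ≤
      cpot (two μ Y) Y' B' H a / 2 := by
  have h2 := law_two h Y
  rw [sz_eq_Jens (μ := two μ Y) (fun x : Two Y => B x.1.1 ∩ B x.1.2) H
    (fun x => inter_subset_left.trans (hB _)), cpot, cpot, mul_sum, mul_sum, ← sum_sub_distrib,
    sum_div]
  refine sum_le_sum fun e _ => ?_
  set c : β → ℝ := ce μ Y (ind B e) with hc
  have c0 : ∀ b, 0 ≤ c b := ce_nonneg h Y (ind_nonneg B e)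
  have c1 : ∀ b, c b ≤ 1 := ce_le_one h Y (ind_le B e)
  have m0 : ∀ b, 0 ≤ 2 * c b - 2 * c b ^ 2 := fun b => by nlinarith [c0 b, c1 b]
  have e1 : ∀ x : Two Y, ind B' e x =
      ind B e x.1.1 + ind B e x.1.2 - 2 * (ind B e x.1.1 * ind B e x.1.2) := by
    intro x
    simp only [ind, hB', mem_sdiff, mem_union, mem_inter]
    by_cases a1 : e ∈ B x.1.1 <;> by_cases a2 : e ∈ B x.1.2 <;> simp [a1, a2]
    norm_num
  have e2 : ∀ x : Two Y, ind (fun x : Two Y => B x.1.1 ∩ B x.1.2) e x =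
      ind B e x.1.1 * (fun _ => (1 : ℝ)) (Y x.1.1) * ind B e x.1.2 := by
    intro x
    simp only [ind, mem_inter]
    by_cases a1 : e ∈ B x.1.1 <;> by_cases a2 : e ∈ B x.1.2 <;> simp [a1, a2]
  have k1 := jens_Jens h2 Y' (φ := ind B' e)
    (g := fun x => 2 * c (Y x.1.1) - 2 * c (Y x.1.1) ^ 2) (ind_nonneg B' e) (fun x => m0 _)
    (fun s t hst => by rw [hY s t hst]) ha (by
      simp only [e1]
      rw [one_PotTwo h Y (ind B e) fun b => (2 * c b - 2 * c b ^ 2) ^ a]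
      exact (pres_fst h Y fun t => (2 * c (Y t) - 2 * c (Y t) ^ 2) *
        (2 * c (Y t) - 2 * c (Y t) ^ 2) ^ a).symm)
  rw [pres_fst h Y fun t => (2 * c (Y t) - 2 * c (Y t) ^ 2) ^ (1 + a)] at k1
  refine le_trans ?_ (div_le_div_of_nonneg_right k1 (by norm_num))
  simp only [e2]
  rw [both_PotTwo h Y (ind B e) fun _ => 1, mul_sum, mul_sum, ← sum_sub_distrib, sum_div]
  refine sum_le_sum fun t _ => ?_
  have := mul_le_mul_of_nonneg_left (num_PotTwo (c0 (Y t)) (c1 (Y t)) ha ha1) (h.pos t).le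
  simp only [← hc]
  linarith

theorem cpot_nonneg (h : Law μ) (Y : T → β) (B : T → Finset E) (H : Finset E) (a : ℝ) :
    0 ≤ cpot μ Y B H a := by
  exact sum_nonneg fun e _ => sum_nonneg fun t _ => mul_nonneg (h.pos t).le
    (rpow_nonneg (ce_nonneg h Y (ind_nonneg B e) _) _)

theorem cpot_le (h : Law μ) (Y : T → β) (B : T → Finset E) (H : Finset E) {a : ℝ} (ha : 0 < a) :
    cpot μ Y B H a ≤ H.card := by
  have : (H.card : ℝ) = ∑ _e ∈ H, ∑ t, μ t * 1 := by simp [h.sum]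
  rw [this]
  refine sum_le_sum fun e _ => sum_le_sum fun t _ => mul_le_mul_of_nonneg_left ?_ (h.pos t).le
  exact rpow_le_one (ce_nonneg h Y (ind_nonneg B e) _) (ce_le_one h Y (ind_le B e) _) (by linarith)

end Vale.Agent.P064
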