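import Vale.Agent.P064K.Defs

/-! Resampling a moved variable given the moved data. -/

namespace Vale.Agent.P064

open Finset Real

variable {T α β δ : Type} [Fintype T] {μ : T → ℝ} (Γ : Type) [Group Γ] [Fintype Γ]

theorem ent_two_Resample {α' : Type} (h : Law μ) (Y : T → β) (X : T → α) (X' : T → α') :
    ent (two μ Y) (fun x => (X x.1.1, X' x.1.2, Y x.1.1)) =
      ent μ (fun t => (X t, Y t)) + ent μ (fun t => (X' t, Y t)) - ent μ Y := by
  classical
  set Z : T → α × β := fun t => (X t, Y t) with hZ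
  set Z' : T → α' × β := fun t => (X' t, Y t) with hZ'
  have h1 : ∀ x : Two Y, log (pr (two μ Y) (fun x => (X x.1.1, X' x.1.2, Y x.1.1))
      (X x.1.1, X' x.1.2, Y x.1.1)) =
      log (pr μ Z (Z x.1.1)) + log (pr μ Z' (Z' x.1.2)) - log (pr μ Y (Y x.1.1)) := by
    intro x
    rw [← log_mul (pr_pos h Z _).ne' (pr_pos h Z' _).ne', ← log_div
      (mul_pos (pr_pos h Z _) (pr_pos h Z' _)).ne' (pr_pos h Y _).ne']
    congr 1
    have h2 := sum_two (μ := μ) Y (fun s => if Z s = Z x.1.1 then 1 else 0)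
      (fun s => if Z' s = Z' x.1.2 then 1 else 0)
    rw [pr_eq, pr_eq μ Z (Z x.1.1), mul_div_assoc, sum_mul]
    refine Eq.trans (sum_congr rfl fun y _ => ?_) (h2.trans (sum_congr rfl fun s _ => ?_))
    · congr 1
      have e1 := x.2
      have e2 := y.2
      simp only [hZ, hZ', Prod.mk.injEq]
      by_cases a1 : X y.1.1 = X x.1.1 <;> by_cases a2 : X' y.1.2 = X' x.1.2 <;>
        by_cases a3 : Y y.1.1 = Y x.1.1 <;> simp [a1, a2, a3, ← e1, ← e2]
    · by_cases e : Z s = Z x.1.1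
      · rw [if_pos e, one_mul, mul_one, show Y s = Y x.1.1 from congrArg Prod.snd e, ce]
        congr 2
        refine sum_congr rfl fun t _ => ?_
        by_cases e' : Z' t = Z' x.1.2
        · simp [e', (show Y t = Y x.1.2 from congrArg Prod.snd e').trans x.2.symm]
        · simp [e']
      · simp [e]
  simp only [ent, h1, mul_sub, mul_add, sum_sub_distrib, sum_add_distrib]
  rw [pres_fst h Y fun t => log (pr μ Z (Z t)), pres_snd h Y fun t => log (pr μ Z' (Z' t)),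
    pres_fst h Y fun t => log (pr μ Y (Y t))]
  ring

variable {Γ}

/-- the moved data -/
def mv_Resample [MulAction Γ α] (P : T → α) (Y : T → β) (x : Γ × T) : α × β :=
  (x.1 • P x.2, Y x.2)

/-- simultaneous translation of both copies -/
def act_Resample [MulAction Γ α] (P : T → α) (Y : T → β) (k : Γ)
    (x : Two (mv_Resample (Γ := Γ) P Y)) : Two (mv_Resample (Γ := Γ) P Y) :=
  ⟨((k * x.1.1.1, x.1.1.2), (k * x.1.2.1, x.1.2.2)), by
    have h := x.2
    simp only [mv_Resample, Prod.mk.injEq] at h ⊢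
    exact ⟨by rw [mul_smul, mul_smul, h.1], h.2⟩⟩

theorem pr_mv_Resample [MulAction Γ α] (P : T → α) (Y : T → β) (k : Γ) (a : α) (b : β) :
    pr (lawG Γ μ) (mv_Resample P Y) (k • a, b) = pr (lawG Γ μ) (mv_Resample P Y) (a, b) := by
  unfold pr
  refine (Fintype.sum_equiv ((Equiv.mulLeft k).prodCongr (Equiv.refl T)) _ _ fun x => ?_).symm
  have e : mv_Resample P Y x = (a, b) ↔
      mv_Resample P Y ((Equiv.mulLeft k).prodCongr (Equiv.refl T) x) = (k • a, b) := by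
    simp [mv_Resample, mul_smul]
  by_cases hx : mv_Resample P Y x = (a, b)
  · rw [if_pos hx, if_pos (e.1 hx)]
    rfl
  · rw [if_neg hx, if_neg fun h => hx (e.2 h)]

theorem two_act_Resample [MulAction Γ α] (P : T → α) (Y : T → β) (k : Γ)
    (x : Two (mv_Resample (Γ := Γ) P Y)) :
    two (lawG Γ μ) (mv_Resample P Y) (act_Resample P Y k x) =
      two (lawG Γ μ) (mv_Resample P Y) x := by
  have h := pr_mv_Resample (μ := μ) P Y k (x.1.1.1 • P x.1.1.2) (Y x.1.1.2)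
  rw [← mul_smul] at h
  unfold two
  exact congrArg (fun z => lawG Γ μ x.1.1 * lawG Γ μ x.1.2 / z) h

variable (Γ)

theorem resample [MulAction Γ α] [MulAction Γ δ] (h : Law μ) (P : T → α) (Y : T → β)
    (Z : T → δ) :
    ∃ (T' : Type) (_ : Fintype T') (μ' : T' → ℝ) (ϖ : T' → T) (W : T' → δ),
      Law μ' ∧ Pres μ' μ ϖ ∧
      (∀ t', ∃ (k : Γ) (t : T), k • P t = P (ϖ t') ∧ Y t = Y (ϖ t') ∧ W t' = k • Z t) ∧
      (∀ ψ : α × δ × β → ℝ,
        ∑ x, lawG Γ μ' x * ψ (x.1 • P (ϖ x.2), x.1 • W x.2, Y (ϖ x.2)) =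
          ∑ x, lawG Γ μ x * ψ (x.1 • P x.2, x.1 • Z x.2, Y x.2)) ∧
      eG Γ μ (fun t => (P t, Z t)) Y - eG Γ μ P Y ≤
        ent μ' (fun t => (W t, P (ϖ t), Y (ϖ t))) - ent μ' (fun t => (P (ϖ t), Y (ϖ t))) := by
  have hG := law_G Γ h
  set S := mv_Resample (Γ := Γ) P Y with hS
  have hT := law_two hG S
  have hk : ∀ x : Two S, (x.1.1.1⁻¹ * x.1.2.1) • P x.1.2.2 = P x.1.1.2 := fun x => by
    have e : x.1.1.1 • P x.1.1.2 = x.1.2.1 • P x.1.2.2 := congrArg Prod.fst x.2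
    rw [mul_smul, ← e, inv_smul_smul]
  have hy : ∀ x : Two S, Y x.1.2.2 = Y x.1.1.2 := fun x => (congrArg Prod.snd x.2).symm
  refine ⟨Two S, inferInstance, two (lawG Γ μ) S, fun x => x.1.1.2,
    fun x => (x.1.1.1⁻¹ * x.1.2.1) • Z x.1.2.2, hT, fun φ => ?_,
    fun x => ⟨_, x.1.2.2, hk x, hy x, rfl⟩, fun ψ => ?_, ?_⟩
  · exact (pres_fst hG S fun y => φ y.2).trans (pres_G Γ φ)
  · let Φ : Γ × Two S → Γ × Two S := fun z =>
      (z.2.1.1.1, act_Resample P Y (z.1 * z.2.1.1.1⁻¹) z.2)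
    have hΦ : Function.Involutive Φ := by
      rintro ⟨k, ⟨⟨g, t⟩, ⟨g', t'⟩⟩, hx⟩
      simp [Φ, act_Resample, mul_assoc]
    rw [← pres_snd hG S fun y => ψ (y.1 • P y.2, y.1 • Z y.2, Y y.2),
      ← pres_G Γ (μ := two (lawG Γ μ) S)
        fun x => ψ (x.1.2.1 • P x.1.2.2, x.1.2.1 • Z x.1.2.2, Y x.1.2.2)]
    refine Fintype.sum_equiv hΦ.toPerm _ _ fun z => ?_
    have e1 : lawG Γ (two (lawG Γ μ) S) (Φ z) = lawG Γ (two (lawG Γ μ) S) z := by
      unfold lawG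
      exact congrArg (· / (Fintype.card Γ : ℝ)) (two_act_Resample P Y _ z.2)
    show _ = lawG Γ (two (lawG Γ μ) S) (Φ z) *
      ψ ((z.1 * z.2.1.1.1⁻¹ * z.2.1.2.1) • P z.2.1.2.2,
        (z.1 * z.2.1.1.1⁻¹ * z.2.1.2.1) • Z z.2.1.2.2, Y z.2.1.2.2)
    rw [e1, mul_assoc, mul_smul z.1, mul_smul z.1, hk, hy]
  · have h1 := ent_two_Resample hG S (fun x => (x.1, P x.2, Y x.2)) (fun x => x.1 • Z x.2)
    have h2 : ent (two (lawG Γ μ) S)
        (fun x => ((x.1.1.1, P x.1.1.2, Y x.1.1.2), x.1.2.1 • Z x.1.2.2, S x.1.1)) ≤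
        ent (two (lawG Γ μ) S) (fun x =>
          (x.1.1.1, (x.1.1.1⁻¹ * x.1.2.1) • Z x.1.2.2, P x.1.1.2, Y x.1.1.2)) := by
      refine ent_mono hT fun s t e => ?_
      simp only [Prod.mk.injEq] at e
      obtain ⟨e1, e2, e3, e4⟩ := e
      rw [e1, mul_smul, mul_smul] at e2
      simp only [hS, mv_Resample, e1, e3, e4, smul_left_cancel _ e2]
    have h3 : ent (two (lawG Γ μ) S) (fun x => (x.1.1.1, P x.1.1.2, Y x.1.1.2)) ≤
        ent (lawG Γ μ) (fun x => ((x.1, P x.2, Y x.2), S x)) := by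
      rw [(pres_fst hG S).ent fun x => (x.1, P x.2, Y x.2)]
      exact ent_mono hG fun s t e => congrArg Prod.fst e
    have h4 := submod hT
      (X := fun x => ((x.1.1.1⁻¹ * x.1.2.1) • Z x.1.2.2, P x.1.1.2, Y x.1.1.2))
      (Y := fun x => (x.1.1.1, P x.1.1.2, Y x.1.1.2)) (U := fun x => (P x.1.1.2, Y x.1.1.2))
      (V := fun x => (x.1.1.1, (x.1.1.1⁻¹ * x.1.2.1) • Z x.1.2.2, P x.1.1.2, Y x.1.1.2))
      (fun s t e => congrArg Prod.snd e) (fun s t e => congrArg Prod.snd e)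
      fun s t e e' => Prod.ext (Prod.ext_iff.1 e').1 e
    have h5 : eG Γ μ (fun t => (P t, Z t)) Y ≤ ent (lawG Γ μ) (fun x => (x.1 • Z x.2, S x)) := by
      refine ent_mono hG fun s t e => ?_
      simp only [hS, mv_Resample, Prod.mk.injEq, Prod.smul_mk] at e ⊢
      exact ⟨⟨e.2.1, e.1⟩, e.2.2⟩
    have h6 : eG Γ μ P Y = ent (lawG Γ μ) S := rfl
    linarith

end Vale.Agent.P064
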