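import Vale.Agent.P064K.Code
import Vale.Agent.P064K.PotTwo
import Vale.Agent.P064K.EntZ
import Vale.Agent.P064K.Resample
import Vale.Agent.P064K.BellA

/-! The extremal argument. -/

namespace Vale.Agent.P064

open Finset Real
open scoped Pointwise

variable {E : Type} [DecidableEq E] {H : Finset E}
variable (Γ : Type) [Group Γ] [Fintype Γ] [MulAction Γ E]

/-- every random subset of `H` carries information at rate `r` -/
def Rate (H : Finset E) (r : ℝ) : Prop :=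
  ∀ (T β : Type) [Fintype T] (μ : T → ℝ) (Y : T → β) (U : T → Finset E), Law μ →
    (∀ t, U t ⊆ H) → r * sz μ U ≤ eG Γ μ U Y - ent μ fun t => (U t, Y t)

namespace St

/-- the functional that is minimized -/
noncomputable def J (Λ Λ' a : ℝ) (s : St H) : ℝ :=
  s.N Γ - (Λ - 2) * s.κ - Λ' * sz s.μ s.B - cpot s.μ s.Y s.B H a

variable {Γ} {Λ Λ' a l r δ : ℝ}

theorem J_ge (hH : ∀ U ⊆ H, U.card * Λ ≤ -log (nu Γ U U)) (ha : 0 < a) (s : St H) :
    -(|Λ'| * H.card) - H.card ≤ s.J Γ Λ Λ' a := by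
  have h1 := s.M_le_N (Γ := Γ)
  have h2 := s.M_ge hH
  have h3 : 0 ≤ s.κ := sz_nonneg s.law _
  have h4 := cpot_le s.law s.Y s.B H ha
  have h5 : Λ' * sz s.μ s.B ≤ |Λ'| * H.card :=
    mul_le_mul (le_abs_self _) (sz_le s.law s.BH) (sz_nonneg s.law _) (abs_nonneg _)
  unfold J
  linarith

theorem label (s : St H) (hmin : ∀ s' : St H, s.J Γ Λ Λ' a - δ ≤ s'.J Γ Λ Λ' a)
    (hr : Rate Γ H r) (ha : 0 < a) (hl : 0 < l) {T₂ : Type} [Fintype T₂] {μ₂ : T₂ → ℝ}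
    (h₂ : Law μ₂) {p : T₂ → s.T} (hp : Pres μ₂ s.μ p) (Z : T₂ → Finset E)
    (hK : ∀ x, s.G (p x) 0 ⊆ Z x) (hZ : ∀ x, Z x ⊆ s.A (p x)) :
    eG Γ μ₂ (fun x => ((s.A (p x), s.G (p x)), Z x)) (fun x => s.Y (p x)) ≤
      eG Γ s.μ (fun t => (s.A t, s.G t)) s.Y + (sz μ₂ Z - s.κ) * (-log l) +
        (a + l) * (eG Γ μ₂ Z (fun x => s.Y (p x)) - ent s.μ s.Y - r * sz μ₂ Z) +
        l * (cpot s.μ s.Y s.B H a + δ) := by
  obtain ⟨T', _, μ', ϖ, W₀, h', hϖ, hW, hlaw, hent⟩ :=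
    resample Γ h₂ (fun x => (s.A (p x), s.G (p x))) (fun x => s.Y (p x)) Z
  have hq : Pres μ' s.μ fun t => p (ϖ t) := fun φ => (hϖ fun x => φ (p x)).trans (hp φ)
  have hW1 : ∀ t, s.G (p (ϖ t)) 0 ⊆ W₀ t := fun t => by
    obtain ⟨k, x, e1, -, e3⟩ := hW t
    have e : k • s.G (p x) 0 = s.G (p (ϖ t)) 0 := congrFun (Prod.ext_iff.1 e1).2 0
    rw [e3, ← e]
    exact smul_finset_subset_smul_finset (hK x)
  have hW2 : ∀ t, W₀ t ⊆ s.A (p (ϖ t)) := fun t => by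
    obtain ⟨k, x, e1, -, e3⟩ := hW t
    have e : k • s.A (p x) = s.A (p (ϖ t)) := (Prod.ext_iff.1 e1).1
    rw [e3, ← e]
    exact smul_finset_subset_smul_finset (hZ x)
  set W : T' → Finset E := fun t => W₀ t \ s.G (p (ϖ t)) 0 with hWd
  have hG : ∀ t t', s.Y (p (ϖ t)) = s.Y (p (ϖ t')) → s.G (p (ϖ t)) 0 = s.G (p (ϖ t')) 0 :=
    fun t t' e => congrFun (s.hG _ _ e) 0
  have c1 := label_code h' (fun t => s.Y (p (ϖ t))) (fun t => s.B (p (ϖ t))) W H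
    (fun t => sdiff_subset_sdiff (hW2 t) subset_rfl) (fun t => s.BH _) ha hl
  have c2 : ent μ' (fun t => (W₀ t, (s.A (p (ϖ t)), s.G (p (ϖ t))), s.Y (p (ϖ t)))) ≤
      ent μ' fun t => (W t, s.B (p (ϖ t)), s.Y (p (ϖ t))) := by
    refine ent_mono h' fun t t' e => ?_
    have e1 : W t = W t' := (Prod.ext_iff.1 e).1
    have e2 : s.B (p (ϖ t)) = s.B (p (ϖ t')) := (Prod.ext_iff.1 (Prod.ext_iff.1 e).2).1
    have e3 : s.Y (p (ϖ t)) = s.Y (p (ϖ t')) := (Prod.ext_iff.1 (Prod.ext_iff.1 e).2).2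
    refine Prod.ext ?_ (Prod.ext (Prod.ext ?_ (s.hG _ _ e3)) e3)
    · show W₀ t = W₀ t'
      rw [← sdiff_union_of_subset (hW1 t), ← sdiff_union_of_subset (hW1 t')]
      exact congrArg₂ (· ∪ ·) e1 (hG _ _ e3)
    · show s.A _ = s.A _
      rw [← sdiff_union_of_subset (s.KA (p (ϖ t))), ← sdiff_union_of_subset (s.KA (p (ϖ t')))]
      exact congrArg₂ (· ∪ ·) e2 (hG _ _ e3)
  have c3 : ent μ' (fun t => (s.B (p (ϖ t)), s.Y (p (ϖ t)))) ≤
      ent μ' fun t => ((s.A (p (ϖ t)), s.G (p (ϖ t))), s.Y (p (ϖ t))) :=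
    ent_mono h' fun t t' e => Prod.ext (congrArg₂ (· \ ·) (Prod.ext_iff.1 (Prod.ext_iff.1 e).1).1
      (hG _ _ (Prod.ext_iff.1 e).2)) (Prod.ext_iff.1 e).2
  have c4 := hp.eG (Γ := Γ) (fun t => (s.A t, s.G t)) s.Y
  have c5 : sz μ' W₀ = sz μ₂ Z := by
    have k := hlaw fun z => (z.2.1.card : ℝ)
    simp only [card_smul_finset] at k
    rw [pres_G Γ fun t => ((W₀ t).card : ℝ), pres_G Γ fun t => ((Z t).card : ℝ)] at k
    exact k
  have c6 : sz μ' W = sz μ₂ Z - s.κ := by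
    rw [hWd, sz_sdiff hW1, c5, hq.sz fun t => s.G t 0]
    rfl
  have c7 := hr T' s.β μ' (fun t => s.Y (p (ϖ t))) W₀ h' fun t => (hW2 t).trans (s.AH _)
  have c8 : eG Γ μ' W₀ (fun t => s.Y (p (ϖ t))) = eG Γ μ₂ Z fun x => s.Y (p x) :=
    ent_eq_of_law hlaw fun z => z.2
  have c9 : ent μ' (fun t => (W t, s.Y (p (ϖ t)))) ≤ ent μ' fun t => (W₀ t, s.Y (p (ϖ t))) :=
    ent_mono h' fun t t' e => Prod.ext (congrArg₂ (· \ ·) (Prod.ext_iff.1 e).1
      (hG _ _ (Prod.ext_iff.1 e).2)) (Prod.ext_iff.1 e).2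
  have c10 := hq.ent s.Y
  have c11 := hmin (s.pin h' (fun t => p (ϖ t)) W)
  have c12 := s.pin_N (Γ := Γ) h' hq W
  have c13 : (s.pin h' (fun t => p (ϖ t)) W).κ = s.κ := hq.sz fun t => s.G t 0
  have c14 : sz (s.pin h' (fun t => p (ϖ t)) W).μ (s.pin h' (fun t => p (ϖ t)) W).B =
      sz s.μ s.B := hq.sz s.B
  have c15 : cpot (s.pin h' (fun t => p (ϖ t)) W).μ (s.pin h' (fun t => p (ϖ t)) W).Y
      (s.pin h' (fun t => p (ϖ t)) W).B H a =
      cpot μ' (fun t => (s.Y (p (ϖ t)), W t)) (fun t => s.B (p (ϖ t))) H a := rfl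
  rw [J, J, c13, c14, c15] at c11
  rw [c5, c8] at c7
  rw [c6] at c1
  set h₀ := ent μ' (fun t => (W t, s.Y (p (ϖ t)))) - ent μ' fun t => s.Y (p (ϖ t)) with hh₀
  have d1 : h₀ ≤ eG Γ μ₂ Z (fun x => s.Y (p x)) - ent s.μ s.Y - r * sz μ₂ Z := by linarith
  have d2 := mul_le_mul_of_nonneg_left d1 (add_pos ha hl).le
  have d3 := mul_le_mul_of_nonneg_left (show cpot μ' (fun t => (s.Y (p (ϖ t)), W t))
    (fun t => s.B (p (ϖ t))) H a ≤ cpot s.μ s.Y s.B H a + δ + h₀ by linarith) hl.le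
  linarith

theorem step (hH : ∀ U ⊆ H, U.card * Λ ≤ -log (nu Γ U U)) {D : ℝ} (hD : 0 ≤ D)
    (hr : Rate Γ H (Λ - D)) (ha : 0 < a) (ha1 : a ≤ 1 / 4) (haD : a * D ≤ 1 / 4) (hl : l = a / 10)
    (hΛ : Λ' = Λ - (7 + 5 * -log l)) (s : St H)
    (hmin : ∀ s' : St H, s.J Γ Λ Λ' a - δ ≤ s'.J Γ Λ Λ' a) :
    s.next.J Γ Λ Λ' a / 2 - l * δ ≤ s.J Γ Λ Λ' a := by
  have hl0 : 0 < l := by rw [hl]; positivity
  have h0 := s.next.law
  have h1 := s.next_N (Γ := Γ)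
  have h2 := s.label hmin hr ha hl0 h0 (pres_fst s.law s.Y) s.Z s.KZ fun _ => inter_subset_left
  have h3 := s.label hmin hr ha hl0 h0 (pres_snd s.law s.Y) s.Z (fun x => s.G_two x ▸ s.KZ x)
    fun _ => inter_subset_right
  have h4 : eG Γ s.next.μ s.Z (fun x => s.Y x.1.1) ≤ eG Γ s.next.μ s.next.G s.next.Y :=
    eG_mono h0 fun g x x' e e' => ⟨congrFun e 0, (Prod.ext_iff.1 e').1⟩
  have h5 : eG Γ s.next.μ s.Z (fun x => s.Y x.1.2) ≤ eG Γ s.next.μ s.next.G s.next.Y :=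
    eG_mono h0 fun g x x' e e' =>
      ⟨congrFun e 0, x.2.symm.trans ((Prod.ext_iff.1 e').1.trans x'.2)⟩
  have h6 : sz s.next.μ s.Z = s.next.κ := rfl
  have h7 := s.next.M_ge hH
  have h8 := ent_overlap s.law s.Y s.B H s.BH ha (by linarith) hl0
  have h9 : ent s.next.μ s.next.Y ≤
      ent (two s.μ s.Y) fun x => (s.B x.1.1 ∩ s.B x.1.2, s.Y x.1.1) := by
    refine ent_mono h0 fun x x' e => Prod.ext (Prod.ext_iff.1 e).2 ?_
    have e1 : s.B x.1.1 ∩ s.B x.1.2 = s.B x'.1.1 ∩ s.B x'.1.2 := (Prod.ext_iff.1 e).1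
    rw [s.BB x, s.BB x'] at e1
    show s.Z x = s.Z x'
    rw [← sdiff_union_of_subset (s.KZ x), ← sdiff_union_of_subset (s.KZ x')]
    exact congrArg₂ (· ∪ ·) e1 (congrFun (s.hG _ _ (Prod.ext_iff.1 e).2) 0)
  have h10 : ent s.μ s.Y ≤ ent s.next.μ s.next.Y :=
    ((pres_fst s.law s.Y).ent s.Y).ge.trans (ent_mono h0 fun x x' e => (Prod.ext_iff.1 e).1)
  have h11 := cpot_two s.law s.Y s.B H s.BH s.next.Y (fun x x' e => (Prod.ext_iff.1 e).1)
    s.next.B s.next_B ha (by linarith)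
  have h12 := s.next_sz
  have h13 : 0 ≤ s.next.κ := sz_nonneg h0 _
  have h14 : cpot (two s.μ s.Y) s.next.Y s.next.B H a = cpot s.next.μ s.next.Y s.next.B H a := rfl
  rw [s.sz_BB] at h8 h11
  rw [h14] at h11
  rw [h6] at h2 h3
  have k : ∀ u, u ≤ eG Γ s.next.μ s.next.G s.next.Y →
      (a + l) * (u - ent s.μ s.Y - (Λ - D) * s.next.κ) ≤
        (s.next.M Γ - Λ * s.next.κ) / 2 + (ent s.next.μ s.next.Y - ent s.μ s.Y) / 2 +
          s.next.κ := fun u hu => by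
    have k1 : u - ent s.μ s.Y - (Λ - D) * s.next.κ ≤ (s.next.M Γ - Λ * s.next.κ) +
        (ent s.next.μ s.next.Y - ent s.μ s.Y) + D * s.next.κ := by unfold M; linarith
    have k2 := mul_le_mul_of_nonneg_left k1 (add_pos ha hl0).le
    have k3 := mul_le_mul_of_nonneg_right (show a + l ≤ 1 / 2 by linarith)
      (show 0 ≤ (s.next.M Γ - Λ * s.next.κ) + (ent s.next.μ s.next.Y - ent s.μ s.Y) by linarith)
    have k4 := mul_le_mul_of_nonneg_right (show (a + l) * D ≤ 1 by rw [hl]; linarith) h13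
    linarith
  have k1 := k _ h4
  have k2 := k _ h5
  have k3 : a = 10 * l := by linarith
  rw [J, J, h12, hΛ]
  unfold N at *
  subst k3
  linarith

end St

variable {Γ} {Λ : ℝ}

theorem rate_step (hH : ∀ U ⊆ H, U.card * Λ ≤ -log (nu Γ U U)) {D : ℝ} (hD : 0 ≤ D)
    (hr : Rate Γ H (Λ - D)) : Rate Γ H (Λ - (7 + 5 * log (40 * (D + 1)))) := by
  set a : ℝ := 1 / (4 * (D + 1)) with ha
  have ha0 : 0 < a := by positivity
  have ha1 : a * (D + 1) = 1 / 4 := by rw [ha]; field_simp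
  have hl : -log (a / 10) = log (40 * (D + 1)) := by
    rw [← log_inv, ha]
    congr 1
    field_simp
    norm_num
  set Λ' := Λ - (7 + 5 * log (40 * (D + 1))) with hΛ'
  have key : ∀ s₀ : St H, 0 ≤ s₀.J Γ Λ Λ' a := by
    intro s₀
    refine le_of_forall_pos_le_add fun δ hδ => ?_
    have hb : BddBelow (Set.range fun s : St H => s.J Γ Λ Λ' a) :=
      ⟨_, by rintro _ ⟨s, rfl⟩; exact St.J_ge hH ha0 s⟩
    obtain ⟨_, ⟨s, rfl⟩, hs⟩ := exists_lt_of_csInf_lt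
      (s := Set.range fun s : St H => s.J Γ Λ Λ' a) ⟨_, s₀, rfl⟩
      (lt_add_of_pos_right _ (show 0 < δ / 4 by positivity))
    have hmin : ∀ s' : St H, s.J Γ Λ Λ' a - δ / 4 ≤ s'.J Γ Λ Λ' a := fun s' => by
      have := csInf_le hb ⟨s', rfl⟩
      linarith
    have h1 := St.step hH hD hr ha0 (by nlinarith) (by nlinarith) rfl (by rw [hl]) s hmin
    have h2 := hmin s.next
    have h3 := hmin s₀
    have h4 : a / 10 * (δ / 4) ≤ δ / 4 := mul_le_of_le_one_left (by positivity) (by nlinarith)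
    linarith
  intro T β _ μ Y U h hU
  have h1 := key ⟨T, inferInstance, μ, h, β, Y, fun _ _ => ∅, fun _ _ _ => rfl, U,
    fun _ => empty_subset _, hU⟩
  have h2 : eG Γ μ (fun t => (U t, fun _ : ℕ => (∅ : Finset E))) Y ≤ eG Γ μ U Y :=
    eG_mono h fun g s t e e' => ⟨Prod.ext e (funext fun _ => by simp), e'⟩
  have h3 := cpot_nonneg h Y (fun t => U t \ ∅) H a
  have h4 : sz μ (fun _ => (∅ : Finset E)) = 0 := by simp [sz]
  have h5 : sz μ (fun t => U t \ ∅) = sz μ U := by simp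
  have h6 : 0 ≤ eG Γ μ (fun t => (U t, fun _ : ℕ => (∅ : Finset E))) Y -
      ent μ (fun t => (U t, Y t)) - (Λ - 2) * sz μ (fun _ => (∅ : Finset E)) -
      Λ' * sz μ (fun t => U t \ ∅) - cpot μ Y (fun t => U t \ ∅) H a := h1
  rw [h4, h5] at h6
  linarith

end Vale.Agent.P064
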