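import Vale.Agent.P064K.Jens

/-! Sequential coding of a subset of a known random set. -/

namespace Vale.Agent.P064

open Finset Real

variable {T β : Type} [Fintype T] {E : Type} [DecidableEq E] {μ : T → ℝ}

theorem step_Code (h : Law μ) (Y : T → β) (B W : T → Finset E)
    (hW : ∀ t, W t ⊆ B t) {a l : ℝ} (ha : 0 < a) (hl : 0 < l) (S : Finset E) (e : E) :
    ent μ (fun t => (W t ∩ insert e S, B t, Y t)) - ent μ (fun t => (W t ∩ S, B t, Y t)) ≤
      (∑ t, μ t * ind W e t) * (-log l) +
        a * (ent μ (fun t => (W t ∩ insert e S, Y t)) - ent μ (fun t => (W t ∩ S, Y t))) +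
        l * ∑ t, μ t * ce μ (fun t => (Y t, W t)) (ind B e) (Y t, W t) ^ (1 + a) := by
  classical
  set V : T → Finset E × β := fun t => (W t ∩ S, Y t) with hV
  set Z : T → Finset E × β := fun t => (W t ∩ insert e S, Y t) with hZ
  set c : Finset E × β → ℝ := ce μ V (ind B e) with hc
  have c0 : ∀ b, 0 ≤ c b := ce_nonneg h V (ind_nonneg B e)
  have cpos : ∀ t, e ∈ B t → 0 < c (V t) := by
    intro t ht
    refine div_pos (sum_pos' (fun t' _ => ?_) ⟨t, mem_univ _, ?_⟩) (pr_pos h _ t)
    · split_ifs
      exacts [mul_nonneg (h.pos _).le (ind_nonneg _ _ _), le_rfl]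
    · simpa [ind, ht] using h.pos t
  have q0 : ∀ b, 0 ≤ l * c b ^ a := fun b => mul_nonneg hl.le (rpow_nonneg (c0 b) _)
  have hZV : ∀ s t, Z s = Z t → V s = V t := by
    intro s t hst
    have e1 : W s ∩ insert e S = W t ∩ insert e S := (Prod.ext_iff.1 hst).1
    refine Prod.ext ?_ (Prod.ext_iff.1 hst).2
    ext u
    have := Finset.ext_iff.1 e1 u
    simp only [mem_inter, mem_insert, hV] at this ⊢
    tauto
  have h1 := ent_le_code h (fun t => decide (e ∈ W t)) (fun t => (W t ∩ S, B t, Y t))
    (fun b z => if e ∈ b.2.1 then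
      (if z = true then l * c (b.1, b.2.2) ^ a / (1 + l * c (b.1, b.2.2) ^ a)
        else 1 / (1 + l * c (b.1, b.2.2) ^ a)) else (if z = true then 0 else 1))
    (fun t => by
      have := q0 (V t)
      by_cases a1 : e ∈ B t
      · have := mul_pos hl (rpow_pos_of_pos (cpos t a1) a)
        simp only [a1, if_true]
        split_ifs <;> positivity
      · have a2 : e ∉ W t := fun h => a1 (hW t h)
        simp [a1, a2])
    (fun b s _ => by
      have hq := q0 (b.1, b.2.2)
      refine le_trans (sum_le_sum_of_subset_of_nonneg (subset_univ s) fun z _ _ => ?_) ?_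
      · split_ifs <;> positivity
      · rw [Fintype.sum_bool]
        by_cases a1 : e ∈ b.2.1
        · simp only [a1, if_true, Bool.false_eq_true, if_false]
          refine le_of_eq ?_
          field_simp
          ring
        · simp [a1])
  have h2 : ent μ (fun t => (W t ∩ insert e S, B t, Y t)) ≤
      ent μ (fun t => (decide (e ∈ W t), W t ∩ S, B t, Y t)) := by
    refine ent_mono h fun s t hst => ?_
    simp only [Prod.mk.injEq, decide_eq_decide] at hst ⊢
    refine ⟨?_, hst.2.2⟩
    ext u
    have := Finset.ext_iff.1 hst.2.1 u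
    simp only [mem_inter, mem_insert] at this ⊢
    by_cases hu : u = e
    · subst hu; simp [hst.1]
    · simp [hu, this]
  have h3 : -∑ t, μ t * log (if e ∈ B t then
      (if decide (e ∈ W t) = true then l * c (V t) ^ a / (1 + l * c (V t) ^ a)
        else 1 / (1 + l * c (V t) ^ a)) else (if decide (e ∈ W t) = true then 0 else 1)) ≤
      ∑ t, μ t * (ind W e t * (-log l) - a * (ind W e t * log (c (V t))) +
        ind B e t * (l * c (V t) ^ a)) := by
    rw [← sum_neg_distrib]
    refine sum_le_sum fun t _ => ?_
    rw [← mul_neg]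
    refine mul_le_mul_of_nonneg_left ?_ (h.pos t).le
    have hq := q0 (V t)
    have hl1 := log_le_sub_one_of_pos (show 0 < 1 + l * c (V t) ^ a by linarith)
    by_cases a1 : e ∈ B t
    · by_cases a2 : e ∈ W t
      · have p1 := rpow_pos_of_pos (cpos t a1) a
        simp only [a1, a2, if_true, decide_true, ind]
        rw [log_div (mul_pos hl p1).ne' (by linarith), log_mul hl.ne' p1.ne',
          log_rpow (cpos t a1)]
        linarith
      · simp only [a1, a2, if_true, if_false, decide_false, ind, Bool.false_eq_true]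
        rw [one_div, log_inv]
        linarith
    · have a2 : e ∉ W t := fun h => a1 (hW t h)
      simp [a1, a2, ind]
  have h4 : ent μ V - ent μ Z ≤ ∑ t, μ t * (ind W e t * log (c (V t))) := by
    unfold ent
    rw [neg_sub_neg, ← sum_sub_distrib]
    refine sum_le_sum fun t _ => ?_
    rw [← mul_sub]
    refine mul_le_mul_of_nonneg_left ?_ (h.pos t).le
    by_cases a2 : e ∈ W t
    · have p1 := cpos t (hW t a2)
      simp only [ind, a2, if_true, one_mul]
      rw [← log_div (pr_pos h Z t).ne' (pr_pos h V t).ne']
      refine log_le_log (div_pos (pr_pos h Z t) (pr_pos h V t)) ?_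
      refine div_le_div_of_nonneg_right (sum_le_sum fun s _ => ?_) (pr_pos h V t).le
      by_cases a3 : Z s = Z t
      · have e1 : W s ∩ insert e S = W t ∩ insert e S := (Prod.ext_iff.1 a3).1
        have a4 : e ∈ W s := by
          have := Finset.ext_iff.1 e1 e
          simp only [mem_inter, mem_insert, true_or, and_true] at this
          exact this.2 a2
        rw [if_pos a3, if_pos (hZV s t a3), ind, if_pos (hW s a4), mul_one]
      · rw [if_neg a3]
        split_ifs
        exacts [mul_nonneg (h.pos _).le (ind_nonneg _ _ _), le_rfl]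
    · simp only [ind, a2, if_false, zero_mul, sub_nonpos]
      exact log_le_log (pr_pos h Z t) (pr_le_pr h fun s hs => hZV s t hs)
  have h5 := tower h V (ind B e) fun b => c b ^ a
  have h6 := jens_Jens h (fun t => (Y t, W t)) (φ := ind B e) (g := fun t => c (V t))
    (ind_nonneg B e) (fun t => c0 _) (fun s t hst => by
      have e1 : Y s = Y t := (Prod.ext_iff.1 hst).1
      have e2 : W s = W t := (Prod.ext_iff.1 hst).2
      simp only [hV, e1, e2]) ha h5
  have h7 : ∑ t, μ t * c (V t) ^ (1 + a) = ∑ t, μ t * (ind B e t * c (V t) ^ a) := by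
    rw [h5]
    exact sum_congr rfl fun t _ => by rw [rpow_one_add' (c0 _) (by linarith)]
  have h8 : ∑ t, μ t * (ind W e t * (-log l) - a * (ind W e t * log (c (V t))) +
        ind B e t * (l * c (V t) ^ a)) = (∑ t, μ t * ind W e t) * (-log l) -
        a * (∑ t, μ t * (ind W e t * log (c (V t)))) +
        l * ∑ t, μ t * (ind B e t * c (V t) ^ a) := by
    rw [sum_mul, mul_sum, mul_sum, ← sum_sub_distrib, ← sum_add_distrib]
    exact sum_congr rfl fun t _ => by ring
  have h9 := mul_le_mul_of_nonneg_left h4 ha.le
  have h10 := mul_le_mul_of_nonneg_left h6 hl.le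
  have h11 := h1.trans h3
  rw [h8, ← h7] at h11
  linarith

theorem label_code (h : Law μ) (Y : T → β) (B W : T → Finset E) (H : Finset E)
    (hW : ∀ t, W t ⊆ B t) (hB : ∀ t, B t ⊆ H) {a l : ℝ} (ha : 0 < a) (hl : 0 < l) :
    ent μ (fun t => (W t, B t, Y t)) - ent μ (fun t => (B t, Y t)) ≤
      sz μ W * (-log l) + a * (ent μ (fun t => (W t, Y t)) - ent μ Y) +
        l * cpot μ (fun t => (Y t, W t)) B H a := by
  have key : ∀ S : Finset E,
      ent μ (fun t => (W t ∩ S, B t, Y t)) - ent μ (fun t => (B t, Y t)) ≤
        (∑ e ∈ S, ∑ t, μ t * ind W e t) * (-log l) +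
          a * (ent μ (fun t => (W t ∩ S, Y t)) - ent μ Y) +
          l * cpot μ (fun t => (Y t, W t)) B S a := by
    intro S
    induction S using Finset.induction_on with
    | empty =>
      rw [ent_congr h (X := fun t => (W t ∩ ∅, B t, Y t)) (U := fun t => (B t, Y t))
        (fun s t => by simp), ent_congr h (X := fun t => (W t ∩ ∅, Y t)) (U := Y)
        (fun s t => by simp)]
      simp [cpot]
    | insert e S he ih =>
      have := step_Code h Y B W hW ha hl S e
      unfold cpot at *
      rw [sum_insert he, sum_insert he]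
      linarith
  have h1 := key H
  have h2 : ∀ t, W t ∩ H = W t := fun t => inter_eq_left.2 ((hW t).trans (hB t))
  simp only [h2] at h1
  rw [sz_eq_Jens W H fun t => (hW t).trans (hB t)]
  exact h1

end Vale.Agent.P064
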