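import Vale.Agent.P064K.Bell
import Vale.Agent.P064.Core

/-! Bootstrapping to a universal constant. -/

namespace Vale.Agent.P064

open Finset Real
open scoped Pointwise

variable {E : Type} [DecidableEq E] {H F : Finset E}
variable {Γ : Type} [Group Γ] [Fintype Γ] [MulAction Γ E] {Λ : ℝ}

theorem sz_nonneg_CoreK {T : Type} [Fintype T] {μ : T → ℝ} (h : Law μ) (U : T → Finset E) :
    0 ≤ sz μ U := sum_nonneg fun t _ => mul_nonneg (h.pos t).le (Nat.cast_nonneg _)

theorem rate_mono_CoreK {r r' : ℝ} (h : Rate Γ H r) (hr : r' ≤ r) : Rate Γ H r' :=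
  fun T β _ μ Y U hμ hU =>
    (mul_le_mul_of_nonneg_right hr (sz_nonneg_CoreK hμ U)).trans (h T β μ Y U hμ hU)

theorem num_CoreK {D : ℝ} (hD : 50 ≤ D) : 7 + 5 * log (40 * (D + 1)) ≤ D - 1 := by
  have h1 : log (40 * (D + 1)) = log 2040 + log ((D + 1) / 51) := by
    rw [← log_mul (by norm_num) (by positivity)]
    congr 1
    ring
  have h2 := log_le_sub_one_of_pos (show 0 < (D + 1) / 51 by positivity)
  have h3 : log 2040 ≤ 11 * log 2 := by
    have : log ((2 : ℝ) ^ 11) = 11 * log 2 := by rw [log_pow]; norm_num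
    rw [← this]
    exact log_le_log (by norm_num) (by norm_num)
  have h4 := log_two_lt_d9
  linarith
theorem rate_zero {r : ℝ} (hr : r ≤ 0) : Rate Γ H r := by
  intro T β _ μ Y U hμ _
  refine (mul_nonpos_of_nonpos_of_nonneg hr (sz_nonneg_CoreK hμ U)).trans (sub_nonneg.2 ?_)
  have h1 := submod (law_G Γ hμ) (X := fun x => (x.1 • U x.2, Y x.2)) (Y := fun x => (x.1, ()))
    (U := fun _ => ()) (V := fun x => (x.1, (U x.2, Y x.2))) (fun _ _ _ => rfl)
    (fun _ _ _ => rfl) fun x y e e' => by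
      have e1 : x.1 = y.1 := (Prod.ext_iff.1 e').1
      have e2 : x.1 • U x.2 = y.1 • U y.2 := (Prod.ext_iff.1 e).1
      have e3 : Y x.2 = Y y.2 := (Prod.ext_iff.1 e).2
      rw [e1] at e2
      exact Prod.ext e1 (Prod.ext (smul_left_cancel _ e2) e3)
  have h2 := ent_pair_G Γ hμ fun t => (U t, Y t)
  have h3 := ent_pair_G Γ hμ fun _ => ()
  have h4 : ent μ (fun _ => ()) = 0 := ent_const hμ fun _ _ => rfl
  have h5 : ent (lawG Γ μ) (fun _ => ()) = 0 := ent_const (law_G Γ hμ) fun _ _ => rfl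
  unfold eG
  linarith

theorem rate_fifty (hH : ∀ U ⊆ H, U.card * Λ ≤ -log (nu Γ U U)) : Rate Γ H (Λ - 50) := by
  have key : ∀ n : ℕ, Rate Γ H (Λ - (50 + n)) → Rate Γ H (Λ - 50) := by
    intro n
    induction n with
    | zero => intro h; simpa using h
    | succ n ih =>
      intro h
      have h0 : (0 : ℝ) ≤ n := Nat.cast_nonneg n
      refine ih (rate_mono_CoreK (rate_step hH (by positivity) h) ?_)
      have := num_CoreK (D := 50 + ((n + 1 : ℕ) : ℝ)) (by push_cast; linarith)
      push_cast at this ⊢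
      linarith
  obtain ⟨n, hn⟩ := exists_nat_ge Λ
  exact key n (rate_zero (by linarith))

theorem coreK (hH : ∀ U ⊆ H, U.card * Λ ≤ -log (nu Γ U U)) (hF : F ⊆ H) :
    F.card * (Λ - 50) ≤ -log (nu Γ H F) := by
  classical
  have h0 := (Stage.init Γ hF).law
  have hr := rate_fifty hH (Stage.init Γ hF).T Unit (Stage.init Γ hF).μ (fun _ => ())
    (Stage.init Γ hF).A h0 (Stage.init Γ hF).AH
  have h1 := cond_G (Γ := Γ) h0 (X := fun t => (t.1 : Γ))
    (U := fun t => (Stage.init Γ hF).A t) fun g t t' e => by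
        show g • t.1 • F = t'.1 • F
        rw [smul_smul]
        exact congrArg (· • F) e
  have h2 : entG Γ (Stage.init Γ hF).μ (fun t => (t.1 : Γ)) ≤ log (Fintype.card Γ) :=
    ent_le_log (law_G Γ h0) _
  have h3 : ent (Stage.init Γ hF).μ (fun t => (t.1 : Γ)) =
      log (Fintype.card {g : Γ // g • F ⊆ H}) := by
    have : ∀ t : (Stage.init Γ hF).T, pr (Stage.init Γ hF).μ (fun t => (t.1 : Γ)) t.1 =
        (Fintype.card {g : Γ // g • F ⊆ H} : ℝ)⁻¹ := fun t => by
      rw [pr, sum_eq_single t (fun t' _ h => if_neg fun e => h (Subtype.ext e)) (by simp),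
        if_pos rfl]
      rfl
    simp only [ent, this, ← sum_mul, h0.sum, log_inv, one_mul, neg_neg]
  have h5 : log (nu Γ H F) = log (Fintype.card {g : Γ // g • F ⊆ H}) - log (Fintype.card Γ) := by
    have : Nonempty {g : Γ // g • F ⊆ H} := ⟨⟨1, by simpa using hF⟩⟩
    rw [nu, sum_boole, ← Fintype.card_subtype, log_div (by exact_mod_cast Fintype.card_pos.ne')
      (cardG_pos Γ).ne']
  have h6 : sz (Stage.init Γ hF).μ (Stage.init Γ hF).A = F.card := by
    have : ∀ t, ((Stage.init Γ hF).A t).card = F.card := fun t => by simp [Stage.init]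
    simp only [sz, this, ← sum_mul, h0.sum, one_mul]
  have h7 : eG Γ (Stage.init Γ hF).μ (Stage.init Γ hF).A (fun _ => ()) =
      entG Γ (Stage.init Γ hF).μ fun t => (Stage.init Γ hF).A t :=
    ent_congr (law_G Γ h0) fun s t => by simp
  have h8 : ent (Stage.init Γ hF).μ (fun t => ((Stage.init Γ hF).A t, ())) =
      ent (Stage.init Γ hF).μ fun t => (Stage.init Γ hF).A t :=
    ent_congr h0 fun s t => by simp
  rw [h6, h7, h8] at hr
  linarith

end Vale.Agent.P064
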