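import Vale.Agent.P064.EntG

/-! Basic quantities for the constant-loss entropy bound. -/

namespace Vale.Agent.P064

open Finset Real
open scoped Pointwise

noncomputable section

variable {T T' α β γ : Type} [Fintype T] [Fintype T'] {E : Type} [DecidableEq E]

/-- indicator of membership -/
def ind (B : T → Finset E) (e : E) (t : T) : ℝ := if e ∈ B t then 1 else 0

/-- the convex potential of the conditional membership probabilities -/
def cpot (μ : T → ℝ) (Y : T → β) (B : T → Finset E) (H : Finset E) (a : ℝ) : ℝ :=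
  ∑ e ∈ H, ∑ t, μ t * ce μ Y (ind B e) (Y t) ^ (1 + a)

/-- expected size -/
def sz (μ : T → ℝ) (B : T → Finset E) : ℝ := ∑ t, μ t * (B t).card

/-- entropy of a randomly moved variable together with an unmoved one -/
def eG (Γ : Type) [Group Γ] [Fintype Γ] [SMul Γ α] (μ : T → ℝ) (P : T → α) (Y : T → β) : ℝ :=
  ent (lawG Γ μ) fun x => (x.1 • P x.2, Y x.2)

omit [Fintype T] in
theorem ind_nonneg (B : T → Finset E) (e : E) (t : T) : 0 ≤ ind B e t := by
  unfold ind; split_ifs <;> norm_num

omit [Fintype T] in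
theorem ind_le (B : T → Finset E) (e : E) (t : T) : ind B e t ≤ 1 := by
  unfold ind; split_ifs <;> norm_num

/-- variables with the same law have the same entropies -/
theorem ent_eq_of_law {μ : T → ℝ} {μ' : T' → ℝ} {X : T → α} {X' : T' → α}
    (h : ∀ ψ : α → ℝ, ∑ t, μ' t * ψ (X' t) = ∑ t, μ t * ψ (X t)) (Θ : α → γ) :
    ent μ' (fun t => Θ (X' t)) = ent μ fun t => Θ (X t) := by
  classical
  have h1 : ∀ c, pr μ' (fun t => Θ (X' t)) c = pr μ (fun t => Θ (X t)) c := fun c => by
    rw [pr_eq, pr_eq, h fun z => if Θ z = c then 1 else 0]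
  simp only [ent, h1]
  rw [h fun z => log (pr μ (fun t => Θ (X t)) (Θ z))]

end

end Vale.Agent.P064
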