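import Vale.Agent.P064K.Defs

/-! Tangent line form of Jensen's inequality for the power `1 + a`. -/

namespace Vale.Agent.P064

open Finset Real

variable {T β : Type} [Fintype T] {μ : T → ℝ}

theorem tangent_Jens {x y a : ℝ} (hx : 0 ≤ x) (hy : 0 ≤ y) (ha : 0 < a) :
    x ^ (1 + a) + (1 + a) * x ^ a * (y - x) ≤ y ^ (1 + a) := by
  rcases hx.eq_or_lt with rfl | hx
  · rw [zero_rpow (by linarith), zero_rpow ha.ne']
    simpa using rpow_nonneg hy (1 + a)
  have h1 := one_add_mul_self_le_rpow_one_add (s := y / x - 1)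
    (by have := div_nonneg hy hx.le; linarith) (p := 1 + a) (by linarith)
  rw [add_sub_cancel, div_rpow hy hx.le, le_div_iff₀ (rpow_pos_of_pos hx _)] at h1
  refine le_trans (le_of_eq ?_) h1
  rw [rpow_one_add' hx.le (by linarith)]
  field_simp

theorem jens_Jens (h : Law μ) (Y : T → β) {φ g : T → ℝ} (hφ : ∀ t, 0 ≤ φ t) (hg : ∀ t, 0 ≤ g t)
    (hY : ∀ s t, Y s = Y t → g s = g t) {a : ℝ} (ha : 0 < a)
    (he : ∑ t, μ t * (φ t * g t ^ a) = ∑ t, μ t * (g t * g t ^ a)) :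
    ∑ t, μ t * g t ^ (1 + a) ≤ ∑ t, μ t * ce μ Y φ (Y t) ^ (1 + a) := by
  obtain ⟨γ, hγ⟩ : ∃ γ : β → ℝ, ∀ t, γ (Y t) = g t :=
    ⟨Function.extend Y g fun _ => 0, fun t =>
      Function.FactorsThrough.extend_apply (fun s t => hY s t) _ t⟩
  have h1 := tower h Y φ fun b => γ b ^ a
  simp only [hγ] at h1
  have h2 : ∑ t, μ t * (g t ^ (1 + a) + (1 + a) * g t ^ a * (ce μ Y φ (Y t) - g t)) ≤
      ∑ t, μ t * ce μ Y φ (Y t) ^ (1 + a) :=
    sum_le_sum fun t _ => mul_le_mul_of_nonneg_left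
      (tangent_Jens (hg t) (ce_nonneg h Y hφ _) ha) (h.pos t).le
  refine le_trans (le_of_eq ?_) h2
  have h3 : ∀ t, μ t * (g t ^ (1 + a) + (1 + a) * g t ^ a * (ce μ Y φ (Y t) - g t)) =
      μ t * g t ^ (1 + a) + (1 + a) * (μ t * (ce μ Y φ (Y t) * g t ^ a)) -
        (1 + a) * (μ t * (g t * g t ^ a)) := fun t => by ring
  simp only [h3, sum_sub_distrib, sum_add_distrib, ← mul_sum]
  rw [← h1, he]
  ring

theorem sz_eq_Jens {E : Type} [DecidableEq E] (B : T → Finset E) (H : Finset E)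
    (hB : ∀ t, B t ⊆ H) : sz μ B = ∑ e ∈ H, ∑ t, μ t * ind B e t := by
  rw [sum_comm]
  refine sum_congr rfl fun t _ => ?_
  rw [← mul_sum]
  congr 1
  simp only [ind, sum_boole]
  rw [filter_mem_eq_inter, inter_eq_right.2 (hB t)]

end Vale.Agent.P064
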